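import Vale.Agent.P032.S5.H555.Cross

/-!
# P032: the two line lemma

`Irr.two_line`: `z` with an exact pair `{c, d}` at `q`, and a direction `cis t` such that every
colour of `T z` except `c`, `d` is on an arc of `S(z)` around `z + cis t` or around `z - cis t`.
Then no point near `z`, different from `z`, has both colours `c`, `d`.

`Irr.isolated_of_two_line`: if this holds for two disjoint pairs and `T z` has five colours, then
`z` is isolated among the points with at least four colours.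
-/

open Set Filter Topology Metric

noncomputable section

namespace Vale.Agent.P032.Six

namespace Irr

variable {k : ℕ} {U : Fin k → Set ℂ} {T : ℂ → Set (Fin k)}

/-- near `z`, on the line through `z` orthogonal to `cis t`, there is no colour which is on an arc
of `S(z)` around `z + cis t` or `z - cis t` -/
theorem line_avoid255 (h : Irr U T) {z : ℂ} {t : ℝ} {i : Fin k}
    (hi : (∀ᶠ q in 𝓝[sphere z 1] (z + cis t), i ∈ Pal U q) ∨
      ∀ᶠ q in 𝓝[sphere z 1] (z - cis t), i ∈ Pal U q) :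
    ∀ᶠ r : ℝ in 𝓝[≠] 0, i ∉ Pal U (z + r * (Complex.I * cis t)) := by
  have key : ∀ {t : ℝ}, (∀ᶠ q in 𝓝[sphere z 1] (z + cis t), i ∈ Pal U q) → ∀ σ : ℝ,
      (σ = 1 ∨ σ = -1) → ∀ᶠ r : ℝ in 𝓝[>] 0, i ∉ Pal U (z + r * (σ * (Complex.I * cis t))) := by
    intro t ht σ hσ
    obtain ⟨v, hv, hvs⟩ := mem_nhdsWithin_iff_exists_mem_nhds_inter.1 ht
    have hc2 : ContinuousAt (fun t => z + cis t) t :=
      (continuous_const.add continuous_cis).continuousAt
    obtain ⟨η, hη, hball⟩ := Metric.mem_nhds_iff.1 (hc2.preimage_mem_nhds hv)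
    exact h.mx.ray_avoid hη (fun s hs => hvs ⟨hball (by rw [mem_ball, Real.dist_eq]; exact hs),
      dist_add_cis z s⟩) hσ
  have key2 : ∀ σ : ℝ, (σ = 1 ∨ σ = -1) →
      ∀ᶠ r : ℝ in 𝓝[>] 0, i ∉ Pal U (z + r * (σ * (Complex.I * cis t))) := by
    intro σ hσ
    rcases hi with hi | hi
    · exact key hi σ hσ
    · have e : z - cis t = z + cis (t + Real.pi) := by
        have : cis (t + Real.pi) = -cis t := by
          unfold cis
          push_cast
          rw [add_mul, Complex.exp_add, Complex.exp_pi_mul_I]; ring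
        rw [this]; ring
      rw [e] at hi
      have h1 := key hi (-σ) (by rcases hσ with rfl | rfl <;> norm_num)
      filter_upwards [h1] with r hr
      have e2 : z + r * (((-σ : ℝ) : ℂ) * (Complex.I * cis (t + Real.pi))) =
          z + r * (σ * (Complex.I * cis t)) := by
        have : cis (t + Real.pi) = -cis t := by
          unfold cis
          push_cast
          rw [add_mul, Complex.exp_add, Complex.exp_pi_mul_I]; ring
        rw [this]; push_cast; ring
      rwa [e2] at hr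
  rw [← nhdsLT_sup_nhdsGT, eventually_sup]
  constructor
  · have h1 := key2 (-1) (Or.inr rfl)
    have h2 : Tendsto (fun r : ℝ => -r) (𝓝[<] 0) (𝓝[>] 0) := by
      refine tendsto_nhdsWithin_iff.2 ⟨?_, ?_⟩
      · have : Continuous fun r : ℝ => -r := by fun_prop
        have := this.tendsto 0
        simp only [neg_zero] at this
        exact this.mono_left nhdsWithin_le_nhds
      · filter_upwards [self_mem_nhdsWithin] with r hr
        simpa using hr
    filter_upwards [h2.eventually h1] with r hr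
    have e : z + ((-r : ℝ) : ℂ) * (((-1 : ℝ) : ℂ) * (Complex.I * cis t)) =
        z + r * (Complex.I * cis t) := by push_cast; ring
    rwa [e] at hr
  · have h1 := key2 1 (Or.inl rfl)
    filter_upwards [h1] with r hr
    have e : z + r * (((1 : ℝ) : ℂ) * (Complex.I * cis t)) = z + r * (Complex.I * cis t) := by
      push_cast; ring
    rwa [e] at hr

/-- **Two line lemma.** -/
theorem two_line (h : Irr U T) {z q : ℂ} {t : ℝ} {c d : Fin k} (hq : dist q z = 1)
    (hT : T q = {c, d}) (hc : c ∈ T z) (hd : d ∈ T z)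
    (hne : ip (Complex.I * cis t) (q - z) ≠ 0)
    (hcov : ∀ i ∈ T z, i = c ∨ i = d ∨ (∀ᶠ q in 𝓝[sphere z 1] (z + cis t), i ∈ Pal U q) ∨
      ∀ᶠ q in 𝓝[sphere z 1] (z - cis t), i ∈ Pal U q) :
    ∀ᶠ w in 𝓝 z, c ∈ T w → d ∈ T w → w = z := by
  set m : ℂ := Complex.I * cis t with hm
  have hmn : ‖m‖ = 1 := by rw [hm, norm_mul, Complex.norm_I, norm_cis, one_mul]
  set κ : ℝ := ip m (q - z) with hκ
  -- the line through `z`
  have h1 : ∀ᶠ r : ℝ in 𝓝[≠] 0, T (z + r * m) ⊆ {c, d} := by
    have h2 : ∀ᶠ r : ℝ in 𝓝[≠] 0, ∀ i, i ∈ T z → i = c ∨ i = d ∨ i ∉ Pal U (z + r * m) := by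
      rw [eventually_all]
      intro i
      by_cases hi : i ∈ T z
      · rcases hcov i hi with h3 | h3 | h3
        · exact Eventually.of_forall fun r _ => Or.inl h3
        · exact Eventually.of_forall fun r _ => Or.inr (Or.inl h3)
        · filter_upwards [h.line_avoid255 h3] with r hr _
          exact Or.inr (Or.inr hr)
      · exact Eventually.of_forall fun r h3 => absurd h3 hi
    have h3 : ∀ᶠ r : ℝ in 𝓝[≠] 0, T (z + r * m) ⊆ T z := by
      have hcont : Continuous fun r : ℝ => z + r * m := by fun_prop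
      have h4 := hcont.tendsto 0
      simp only [Complex.ofReal_zero, zero_mul, add_zero] at h4
      exact (h4.mono_left nhdsWithin_le_nhds).eventually (h.nhd z)
    filter_upwards [h2, h3] with r h4 h5 i hi
    rcases h4 i (h5 hi) with h6 | h6 | h6
    · exact Or.inl h6
    · exact Or.inr h6
    · exact absurd (h.sub _ hi) h6
  obtain ⟨δ, hδ, hδT⟩ : ∃ δ > 0, ∀ r : ℝ, r ≠ 0 → |r| < δ → T (z + r * m) ⊆ {c, d} := by
    obtain ⟨δ, hδ, hd⟩ := Metric.eventually_nhds_iff.1 (eventually_nhdsWithin_iff.1 h1)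
    exact ⟨δ, hδ, fun r h2 h3 => hd (by rw [Real.dist_eq, sub_zero]; exact h3) h2⟩
  -- the number of the cross lemma
  obtain ⟨ε, hε, hεc⟩ : ∃ ε > 0, ∀ w w', dist w z < ε → dist w' z < ε → c ∈ T w → d ∈ T w' →
      w ≠ w' → ε * dist w w' ≤ |ip (w' - w) (q - z)| := by
    obtain ⟨ε, h2, h3⟩ := ((h.cross hq hT.le).and self_mem_nhdsWithin).exists
    exact ⟨ε, h3, h2⟩
  have hκ0 : 0 < |κ| := abs_pos.2 hne
  have hnl := h.no_layer hq
  have hball : ∀ᶠ w in 𝓝 z, dist w z < min ε (min δ ε * |κ|) :=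
    ball_mem_nhds z (by positivity)
  filter_upwards [hball, hnl] with w hw hnlw hcw hdw
  by_contra hwz
  have hw1 : dist w z < ε := lt_of_lt_of_le hw (min_le_left _ _)
  have hw2 : dist w z < min δ ε * |κ| := lt_of_lt_of_le hw (min_le_right _ _)
  have hw0 : 0 < dist w z := dist_pos.2 hwz
  have h4 : 4 ≤ (T w).ncard := by
    refine hnlw ?_
    rw [hT]
    rintro i (rfl | hi)
    · exact hcw
    · rw [mem_singleton_iff] at hi; rw [hi]; exact hdw
  have hipb : |ip (w - z) (q - z)| ≤ dist w z := by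
    have h5 : (ip (w - z) (q - z)) ^ 2 ≤ dist w z ^ 2 := by
      have h6 : (q - z).re ^ 2 + (q - z).im ^ 2 = 1 :=
        ip_sq (by rw [← dist_eq_norm]; exact hq)
      have h7 : dist w z ^ 2 = (w - z).re ^ 2 + (w - z).im ^ 2 := by
        rw [sq_dist]; simp
      rw [h7]
      unfold ip
      nlinarith [sq_nonneg ((w - z).re * (q - z).im - (w - z).im * (q - z).re)]
    exact abs_le_of_sq_le_sq h5 hw0.le
  -- the intersection
  obtain ⟨s, hs⟩ : ∃ s : ℝ, s * κ = ip (w - z) (q - z) :=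
    ⟨ip (w - z) (q - z) / κ, div_mul_cancel₀ _ hne⟩
  have hsabs : |s| < min δ ε := by
    have h5 : |s| * |κ| ≤ dist w z := by rw [← abs_mul, hs]; exact hipb
    by_contra hcon
    push Not at hcon
    have := mul_le_mul_of_nonneg_right hcon hκ0.le
    linarith
  set y : ℂ := z + s * m with hy
  have hyz : dist y z = |s| := by
    rw [hy, dist_eq_norm]; simp [hmn]
  have hyw : ip (y - w) (q - z) = 0 := by
    have e : y - w = s * m - (w - z) := by rw [hy]; ring
    rw [e]
    have e2 : ip (s * m - (w - z)) (q - z) = s * ip m (q - z) - ip (w - z) (q - z) := by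
      unfold ip; simp; ring
    rw [e2, ← hκ, hs, sub_self]
  have hyε : dist y z < ε := by rw [hyz]; exact lt_of_lt_of_le hsabs (min_le_right _ _)
  by_cases hyw0 : y = w
  · -- `w` is on the line through `z`
    have hs0 : s ≠ 0 := by
      rintro rfl
      apply hwz
      rw [← hyw0, hy]; simp
    have h5 := hδT s hs0 (lt_of_lt_of_le hsabs (min_le_left _ _))
    rw [← hy, hyw0] at h5
    have h6 := Set.ncard_le_ncard h5 (Set.toFinite _)
    have h7 := Set.ncard_insert_le c ({d} : Set (Fin k))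
    rw [Set.ncard_singleton] at h7
    omega
  · -- a colour of `y`
    have hcy : d ∉ T y := by
      intro h5
      have h6 := hεc w y hw1 hyε hcw h5 (Ne.symm hyw0)
      rw [hyw, abs_zero] at h6
      have := dist_pos.2 (Ne.symm hyw0)
      nlinarith
    have hdy : c ∉ T y := by
      intro h5
      have h6 := hεc y w hyε hw1 h5 hdw hyw0
      have h7 : ip (w - y) (q - z) = 0 := by
        have : ip (w - y) (q - z) = -ip (y - w) (q - z) := by unfold ip; simp; ring
        rw [this, hyw, neg_zero]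
      rw [h7, abs_zero] at h6
      have := dist_pos.2 hyw0
      nlinarith
    have hs0 : s ≠ 0 := by
      rintro rfl
      apply hcy
      rw [hy]; simpa using hd
    obtain ⟨i, hi⟩ := h.ne y
    rcases hδT s hs0 (lt_of_lt_of_le hsabs (min_le_left _ _)) hi with h5 | h5
    · exact hdy (h5 ▸ hi)
    · rw [mem_singleton_iff] at h5; exact hcy (h5 ▸ hi)

/-- **Isolation.** -/
theorem isolated_of_two_line (h : Irr U T) {z : ℂ} (h5 : (T z).ncard = 5) {c d c' d' : Fin k}
    (hcd : c ≠ c' ∧ c ≠ d' ∧ d ≠ c' ∧ d ≠ d') (hc : c ∈ T z) (hd : d ∈ T z) (hc' : c' ∈ T z)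
    (hd' : d' ∈ T z)
    (h1 : ∀ᶠ w in 𝓝 z, c ∈ T w → d ∈ T w → w = z)
    (h2 : ∀ᶠ w in 𝓝 z, c' ∈ T w → d' ∈ T w → w = z) :
    ∀ᶠ w in 𝓝 z, 4 ≤ (T w).ncard → w = z := by
  filter_upwards [h1, h2, h.nhd z] with w h3 h4 h6 h7
  by_contra hcon
  have h8 : ¬ (c ∈ T w ∧ d ∈ T w) := fun h8 => hcon (h3 h8.1 h8.2)
  have h9 : ¬ (c' ∈ T w ∧ d' ∈ T w) := fun h9 => hcon (h4 h9.1 h9.2)
  obtain ⟨x, hx, hxw⟩ : ∃ x, (x = c ∨ x = d) ∧ x ∉ T w := by
    by_cases hcw : c ∈ T w
    · exact ⟨d, Or.inr rfl, fun hd2 => h8 ⟨hcw, hd2⟩⟩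
    · exact ⟨c, Or.inl rfl, hcw⟩
  obtain ⟨y, hy, hyw⟩ : ∃ y, (y = c' ∨ y = d') ∧ y ∉ T w := by
    by_cases hcw : c' ∈ T w
    · exact ⟨d', Or.inr rfl, fun hd2 => h9 ⟨hcw, hd2⟩⟩
    · exact ⟨c', Or.inl rfl, hcw⟩
  have hxz : x ∈ T z := by rcases hx with rfl | rfl <;> assumption
  have hyz : y ∈ T z := by rcases hy with rfl | rfl <;> assumption
  have hxy : x ≠ y := by
    rcases hx with rfl | rfl <;> rcases hy with rfl | rfl <;> tauto
  have h10 : T w ⊆ T z \ {x, y} := fun i hi => ⟨h6 hi, by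
    rintro (rfl | h11)
    · exact hxw hi
    · rw [mem_singleton_iff] at h11; exact hyw (h11 ▸ hi)⟩
  have h11 := Set.ncard_le_ncard h10 (Set.toFinite _)
  have h12 : ({x, y} : Set (Fin k)) ⊆ T z := by
    rintro i (rfl | h13)
    · exact hxz
    · rw [mem_singleton_iff] at h13; exact h13 ▸ hyz
  rw [Set.ncard_sdiff h12 (Set.toFinite _), Set.ncard_pair hxy] at h11
  omega

end Irr

end Vale.Agent.P032.Six
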